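import Mathlib
import Vale.Agent.Results.P062.StripFive

/-!
# P062: a pairing strategy on the plane without the cells of a sublattice of index nine

The board is the set of the cells `(x, y)` for which `x % 3 = 0` and `y % 3 = 0` do not both
hold.  A pairing of period three in both coordinates meets every allowed copy of Snaky on it.
-/

namespace Vale.Agent.Helper8.P062Lattice

open Vale.Agent.Results.P062.StripFive

/-- The board: all cells except those with both coordinates divisible by three. -/
def board3 : Set Cell := {p | ¬ (p.1 % 3 = 0 ∧ p.2 % 3 = 0)}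

/-- The pairing (period three in both coordinates). -/
def mate3 (p : Cell) : Cell :=
  if p.1 % 3 = 0 then
    (if p.2 % 3 = 1 then (p.1, p.2 + 1) else if p.2 % 3 = 2 then (p.1, p.2 - 1) else p)
  else if p.1 % 3 = 1 then (p.1 + 1, p.2)
  else (p.1 - 1, p.2)

theorem mate3_mate3 (p : Cell) : mate3 (mate3 p) = p := by
  obtain ⟨x, y⟩ := p
  have hx : x % 3 = 0 ∨ x % 3 = 1 ∨ x % 3 = 2 := by omega
  have hy : y % 3 = 0 ∨ y % 3 = 1 ∨ y % 3 = 2 := by omega
  rcases hx with h | h | h
  · rcases hy with g | g | g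
    · simp [mate3, h, g]
    · have g' : (y + 1) % 3 = 2 := by omega
      simp [mate3, h, g, g']
    · have g' : (y - 1) % 3 = 1 := by omega
      simp [mate3, h, g, g']
  · have h' : (x + 1) % 3 = 2 := by omega
    simp [mate3, h, h']
  · have h' : (x - 1) % 3 = 1 := by omega
    simp [mate3, h, h']

theorem mate3_mem_board3 {p : Cell} (hp : p ∈ board3) : mate3 p ∈ board3 := by
  obtain ⟨x, y⟩ := p
  simp only [board3, Set.mem_ofPred_eq] at hp ⊢
  unfold mate3
  split_ifs <;> simp only <;> omega

theorem mate3_shift (x y q u : ℤ) :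
    mate3 (x + 3 * q, y + 3 * u)
      = ((mate3 (x, y)).1 + 3 * q, (mate3 (x, y)).2 + 3 * u) := by
  have h : (x + 3 * q) % 3 = x % 3 := by omega
  have g : (y + 3 * u) % 3 = y % 3 := by omega
  unfold mate3
  simp only [h, g]
  split_ifs <;> simp <;> ring

set_option maxRecDepth 100000 in
theorem fin_check3 : ∀ e ∈ allSyms, ∀ r ∈ ([0, 1, 2] : List ℤ), ∀ s ∈ ([0, 1, 2] : List ℤ),
    (∀ p ∈ snakyL, ¬ ((r + (sym e p).1) % 3 = 0 ∧ (s + (sym e p).2) % 3 = 0)) →
    ∃ p ∈ snakyL, ∃ q ∈ snakyL,
      mate3 (r + (sym e p).1, s + (sym e p).2) = (r + (sym e q).1, s + (sym e q).2) ∧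
      (r + (sym e q).1, s + (sym e q).2) ≠ (r + (sym e p).1, s + (sym e p).2) := by
  decide

/-- Every allowed copy inside the board contains a cell together with its (different) mate. -/
theorem copy_has_pair3 {C : Finset Cell} (hC : IsCopy C) (hCs : ∀ c ∈ C, c ∈ board3) :
    ∃ c ∈ C, mate3 c ∈ C ∧ mate3 c ≠ c := by
  obtain ⟨e, t, rfl⟩ := hC
  obtain ⟨tx, ty⟩ := t
  have hmem : ∀ p ∈ snaky, ((tx, ty) : Cell) + sym e p ∈
      Finset.image (fun p => ((tx, ty) : Cell) + sym e p) snaky :=
    fun p hp => Finset.mem_image_of_mem _ hp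
  have hr' : tx % 3 ∈ ([0, 1, 2] : List ℤ) := by
    have : tx % 3 = 0 ∨ tx % 3 = 1 ∨ tx % 3 = 2 := by omega
    rcases this with h | h | h <;> simp [h]
  have hs' : ty % 3 ∈ ([0, 1, 2] : List ℤ) := by
    have : ty % 3 = 0 ∨ ty % 3 = 1 ∨ ty % 3 = 2 := by omega
    rcases this with h | h | h <;> simp [h]
  have hin : ∀ p ∈ snakyL,
      ¬ ((tx % 3 + (sym e p).1) % 3 = 0 ∧ (ty % 3 + (sym e p).2) % 3 = 0) := by
    intro p hp
    have h0 := hCs _ (hmem p ((mem_snaky_iff p).mpr hp))
    simp only [board3, Set.mem_ofPred_eq, Prod.fst_add, Prod.snd_add] at h0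
    omega
  obtain ⟨p, hp, q, hq, hpq, hne⟩ := fin_check3 e (mem_allSyms e) _ hr' _ hs' hin
  have hm : mate3 ((tx, ty) + sym e p) = (tx, ty) + sym e q := by
    have h1 : ((tx, ty) : Cell) + sym e p
        = (tx % 3 + (sym e p).1 + 3 * (tx / 3), ty % 3 + (sym e p).2 + 3 * (ty / 3)) := by
      ext
      · simp only [Prod.fst_add]; omega
      · simp only [Prod.snd_add]; omega
    rw [h1, mate3_shift, hpq]
    ext
    · simp only [Prod.fst_add]; omega
    · simp only [Prod.snd_add]; omega
  refine ⟨(tx, ty) + sym e p, hmem p ((mem_snaky_iff p).mpr hp), ?_, ?_⟩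
  · rw [hm]
    exact hmem q ((mem_snaky_iff q).mpr hq)
  · rw [hm]
    intro heq
    apply hne
    have e1 := congrArg Prod.fst heq
    have e2 := congrArg Prod.snd heq
    simp only [Prod.fst_add, Prod.snd_add] at e1 e2
    ext
    · simp only; omega
    · simp only; omega

/-! ### The strategy (as in `StripFive`, with the new pairing) -/

theorem fresh_mem_board3 (F : Finset Cell) : fresh F ∈ board3 := by
  simp [fresh, board3]

/-- The answer of Breaker to the move `c` in the position `s`. -/
def reply3 (s : Finset Cell × Finset Cell) (c : Cell) : Cell :=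
  if mate3 c ≠ c ∧ mate3 c ∉ s.1 ∧ mate3 c ∉ s.2 then mate3 c else fresh (insert c (s.1 ∪ s.2))

/-- One round. -/
def step3 (s : Finset Cell × Finset Cell) (c : Cell) : Finset Cell × Finset Cell :=
  (insert c s.1, insert (reply3 s c) s.2)

/-- The pairing strategy as a function of the chronological list of the moves of Maker. -/
def strat3 (l : List Cell) : Cell :=
  match l.reverse with
  | [] => (0, 2)
  | c :: r => reply3 (r.reverse.foldl step3 (∅, ∅)) c

/-- The position after `k` rounds. -/
def pos3 (m : ℕ → Cell) (k : ℕ) : Finset Cell × Finset Cell :=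
  ((List.range k).map m).foldl step3 (∅, ∅)

theorem pos3_succ (m : ℕ → Cell) (k : ℕ) : pos3 m (k + 1) = step3 (pos3 m k) (m k) := by
  simp [pos3, List.range_succ, List.foldl_append]

theorem breakerMove3_eq (m : ℕ → Cell) (k : ℕ) :
    breakerMove strat3 m k = reply3 (pos3 m k) (m k) := by
  simp [breakerMove, strat3, pos3, List.range_succ]

theorem pos3_fst (m : ℕ → Cell) (k : ℕ) : (pos3 m k).1 = (Finset.range k).image m := by
  induction k with
  | zero => simp [pos3]
  | succ k ih =>
    rw [pos3_succ, step3, Finset.range_add_one, Finset.image_insert, ih]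

theorem pos3_snd (m : ℕ → Cell) (k : ℕ) :
    (pos3 m k).2 = (Finset.range k).image (breakerMove strat3 m) := by
  induction k with
  | zero => simp [pos3]
  | succ k ih =>
    rw [pos3_succ, step3, Finset.range_add_one, Finset.image_insert, ih, breakerMove3_eq]

theorem reply3_notMem (s : Finset Cell × Finset Cell) (c : Cell) :
    reply3 s c ≠ c ∧ reply3 s c ∉ s.1 ∧ reply3 s c ∉ s.2 := by
  unfold reply3
  split_ifs with h
  · exact h
  · have hf := fresh_notMem (insert c (s.1 ∪ s.2))
    simp only [Finset.mem_insert, Finset.mem_union, not_or] at hf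
    exact ⟨hf.1, hf.2.1, hf.2.2⟩

theorem reply3_mem_board3 (s : Finset Cell × Finset Cell) {c : Cell} (hc : c ∈ board3) :
    reply3 s c ∈ board3 := by
  unfold reply3
  split_ifs with h
  · exact mate3_mem_board3 hc
  · exact fresh_mem_board3 _

/-- The invariant of the pairing strategy. -/
def Inv3 (s : Finset Cell × Finset Cell) : Prop :=
  (∀ c ∈ s.1, c ∉ s.2) ∧ ∀ c ∈ s.1, mate3 c ≠ c → mate3 c ∈ s.2

theorem inv3_step {s : Finset Cell × Finset Cell} (hs : Inv3 s) {c : Cell}
    (hc1 : c ∉ s.1) (hc2 : c ∉ s.2) : Inv3 (step3 s c) := by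
  obtain ⟨hr0, hr1, hr2⟩ := reply3_notMem s c
  refine ⟨?_, ?_⟩
  · intro d hd hd2
    simp only [step3, Finset.mem_insert] at hd hd2
    rcases hd with rfl | hd
    · rcases hd2 with h | h
      · exact hr0 h.symm
      · exact hc2 h
    · rcases hd2 with h | h
      · exact hr1 (h ▸ hd)
      · exact hs.1 d hd h
  · intro d hd hne
    simp only [step3, Finset.mem_insert] at hd ⊢
    rcases hd with rfl | hd
    · by_cases hcond : mate3 d ≠ d ∧ mate3 d ∉ s.1 ∧ mate3 d ∉ s.2
      · left
        simp [reply3, hcond]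
      · right
        by_contra hnot
        have hin1 : mate3 d ∈ s.1 := by
          by_contra h1
          exact hcond ⟨hne, h1, hnot⟩
        have h2 := hs.2 (mate3 d) hin1 (by rw [mate3_mate3]; exact fun h => hne h.symm)
        rw [mate3_mate3] at h2
        exact hc2 h2
    · right
      exact hs.2 d hd hne

theorem inv3_pos {m : ℕ → Cell} {B : Set Cell} {K : ℕ} (hleg : MakerLegal B strat3 m K) :
    ∀ k ≤ K, Inv3 (pos3 m k) := by
  intro k
  induction k with
  | zero => intro _; simp [pos3, Inv3]
  | succ k ih =>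
    intro hk
    rw [pos3_succ]
    obtain ⟨-, h1, h2⟩ := hleg k (by omega)
    apply inv3_step (ih (by omega))
    · rw [pos3_fst]
      simp only [Finset.mem_image, Finset.mem_range, not_exists, not_and]
      intro i hi heq
      exact h1 i hi heq.symm
    · rw [pos3_snd]
      simp only [Finset.mem_image, Finset.mem_range, not_exists, not_and]
      intro i hi heq
      exact h2 i hi heq.symm

/-- Breaker wins on the plane without the cells whose two coordinates are divisible by three. -/
theorem breakerWins_lattice : BreakerWins {p : Cell | ¬ (p.1 % 3 = 0 ∧ p.2 % 3 = 0)} := by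
  refine ⟨strat3, fun m K hleg => ⟨?_, ?_⟩⟩
  · obtain ⟨hB, -, -⟩ := hleg K (by omega)
    obtain ⟨hr0, hr1, hr2⟩ := reply3_notMem (pos3 m K) (m K)
    rw [breakerMove3_eq]
    refine ⟨reply3_mem_board3 _ hB, ?_, ?_⟩
    · intro i hi heq
      rcases Nat.lt_or_ge i K with hlt | hge
      · apply hr1
        rw [pos3_fst, heq]
        exact Finset.mem_image_of_mem _ (Finset.mem_range.mpr hlt)
      · have : i = K := by omega
        subst this
        exact hr0 heq
    · intro i hi heq
      apply hr2
      rw [pos3_snd, heq]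
      exact Finset.mem_image_of_mem _ (Finset.mem_range.mpr hi)
  · rintro ⟨C, hC, hCm⟩
    have hinv := inv3_pos hleg (K + 1) le_rfl
    have hCpos : ∀ c ∈ C, c ∈ (pos3 m (K + 1)).1 := by
      intro c hc
      obtain ⟨i, hi, rfl⟩ := hCm c hc
      rw [pos3_fst]
      exact Finset.mem_image_of_mem _ (Finset.mem_range.mpr (by omega))
    have hCs : ∀ c ∈ C, c ∈ board3 := by
      intro c hc
      obtain ⟨i, hi, rfl⟩ := hCm c hc
      exact (hleg i (by omega)).1
    obtain ⟨c, hc, hmc, hne⟩ := copy_has_pair3 hC hCs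
    exact hinv.1 (mate3 c) (hCpos _ hmc) (hinv.2 c (hCpos _ hc) hne)

end Vale.Agent.Helper8.P062Lattice
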