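import Mathlib
import Vale.Agent.Results.P062.StripFive

/-!
# P062: the pairing of the strip of height five, repeated in every block of six rows

The board is the set of the cells `(x, y)` with `y % 6 ≠ 5` (the plane without every sixth row).
The pairing of `StripFive` is used in every block of five consecutive rows.
-/

namespace Vale.Agent.Helper8.P062Rows

open Vale.Agent.Results.P062.StripFive

/-- The board: all cells whose second coordinate is not `5` modulo `6`. -/
def board : Set Cell := {p | p.2 % 6 ≠ 5}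

/-- The pairing: the pairing of the strip, applied inside the block of the cell. -/
def mate6 (p : Cell) : Cell :=
  ((mate (p.1, p.2 % 6)).1, (mate (p.1, p.2 % 6)).2 + 6 * (p.2 / 6))

theorem mate_snd_range (x s : ℤ) (hs : 0 ≤ s ∧ s < 6) :
    0 ≤ (mate (x, s)).2 ∧ (mate (x, s)).2 < 6 := by
  by_cases h5 : s = 5
  · subst h5
    unfold mate
    split_ifs <;> simp_all
  · have hstrip : ((x, s) : Cell) ∈ strip := by
      simp only [strip, Set.mem_ofPred_eq]
      omega
    have h := mate_mem_strip hstrip
    simp only [strip, Set.mem_ofPred_eq] at h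
    omega

theorem mate6_mate6 (p : Cell) : mate6 (mate6 p) = p := by
  obtain ⟨x, y⟩ := p
  have hs : 0 ≤ y % 6 ∧ y % 6 < 6 := by omega
  have hr := mate_snd_range x (y % 6) hs
  have hmm := mate_mate (x, y % 6)
  have h1 : ((mate (x, y % 6)).2 + 6 * (y / 6)) % 6 = (mate (x, y % 6)).2 := by omega
  have h2 : ((mate (x, y % 6)).2 + 6 * (y / 6)) / 6 = y / 6 := by omega
  have hpair : ((mate (x, y % 6)).1, (mate (x, y % 6)).2) = mate (x, y % 6) := rfl
  unfold mate6
  simp only [h1, h2, hpair, hmm]
  ext
  · rfl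
  · simp only
    omega

theorem mate6_mem_board {p : Cell} (hp : p ∈ board) : mate6 p ∈ board := by
  obtain ⟨x, y⟩ := p
  simp only [board, Set.mem_ofPred_eq] at hp ⊢
  have hstrip : ((x, y % 6) : Cell) ∈ strip := by
    simp only [strip, Set.mem_ofPred_eq]
    omega
  have h := mate_mem_strip hstrip
  simp only [strip, Set.mem_ofPred_eq] at h
  simp only [mate6]
  omega

/-- A copy that avoids the removed rows lies in one block of five rows. -/
theorem block_check : ∀ e ∈ allSyms, ∀ s ∈ ([0, 1, 2, 3, 4, 5] : List ℤ),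
    (∀ p ∈ snakyL, (s + (sym e p).2) % 6 ≠ 5) →
    ∀ p ∈ snakyL, 0 ≤ s + (sym e p).2 ∧ s + (sym e p).2 < 5 := by
  decide

/-- Every allowed copy inside the board contains a cell together with its (different) mate. -/
theorem copy_has_pair6 {C : Finset Cell} (hC : IsCopy C) (hCs : ∀ c ∈ C, c ∈ board) :
    ∃ c ∈ C, mate6 c ∈ C ∧ mate6 c ≠ c := by
  obtain ⟨e, t, rfl⟩ := hC
  obtain ⟨tx, ty⟩ := t
  have hmem : ∀ p ∈ snaky, ((tx, ty) : Cell) + sym e p ∈
      Finset.image (fun p => ((tx, ty) : Cell) + sym e p) snaky :=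
    fun p hp => Finset.mem_image_of_mem _ hp
  have hs' : ty % 6 ∈ ([0, 1, 2, 3, 4, 5] : List ℤ) := by
    have : ty % 6 = 0 ∨ ty % 6 = 1 ∨ ty % 6 = 2 ∨ ty % 6 = 3 ∨ ty % 6 = 4 ∨ ty % 6 = 5 := by
      omega
    rcases this with h | h | h | h | h | h <;> simp [h]
  have hin : ∀ p ∈ snakyL, (ty % 6 + (sym e p).2) % 6 ≠ 5 := by
    intro p hp
    have h0 := hCs _ (hmem p ((mem_snaky_iff p).mpr hp))
    simp only [board, Set.mem_ofPred_eq, Prod.snd_add] at h0
    omega
  have hblock := block_check e (mem_allSyms e) _ hs' hin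
  -- the copy translated into the strip
  have hC0 : IsCopy (Finset.image (fun p => ((tx, ty % 6) : Cell) + sym e p) snaky) :=
    ⟨e, (tx, ty % 6), rfl⟩
  have hC0s : ∀ c ∈ Finset.image (fun p => ((tx, ty % 6) : Cell) + sym e p) snaky,
      c ∈ strip := by
    intro c hc
    obtain ⟨p, hp, rfl⟩ := Finset.mem_image.mp hc
    have := hblock p ((mem_snaky_iff p).mp hp)
    simpa [strip] using this
  obtain ⟨c0, hc0, hm0, hne0⟩ := copy_has_pair hC0 hC0s
  obtain ⟨p0, hp0, rfl⟩ := Finset.mem_image.mp hc0
  obtain ⟨p1, hp1, hp1eq⟩ := Finset.mem_image.mp hm0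
  have hb0 := hblock p0 ((mem_snaky_iff p0).mp hp0)
  have key : mate6 ((tx, ty) + sym e p0) = (tx, ty) + sym e p1 := by
    have e1 : (ty + (sym e p0).2) % 6 = ty % 6 + (sym e p0).2 := by omega
    have e2 : (ty + (sym e p0).2) / 6 = ty / 6 := by omega
    have e3 : ((tx, ty % 6) : Cell) + sym e p0 = (tx + (sym e p0).1, ty % 6 + (sym e p0).2) := rfl
    have e4 : mate (tx + (sym e p0).1, ty % 6 + (sym e p0).2)
        = ((tx, ty % 6) : Cell) + sym e p1 := by rw [← e3]; exact hp1eq.symm
    simp only [mate6, Prod.fst_add, Prod.snd_add, e1, e2, e4]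
    ext
    · rfl
    · simp only [Prod.snd_add]
      omega
  refine ⟨(tx, ty) + sym e p0, hmem p0 hp0, ?_, ?_⟩
  · rw [key]
    exact hmem p1 hp1
  · rw [key]
    intro heq
    apply hne0
    rw [← hp1eq]
    have a1 := congrArg Prod.fst heq
    have a2 := congrArg Prod.snd heq
    simp only [Prod.fst_add, Prod.snd_add] at a1 a2
    ext
    · simp only [Prod.fst_add]; omega
    · simp only [Prod.snd_add]; omega

/-! ### The strategy (as in `StripFive`, with the new pairing) -/

theorem fresh_mem_board (F : Finset Cell) : fresh F ∈ board := by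
  simp [fresh, board]

/-- The answer of Breaker to the move `c` in the position `s`. -/
def reply6 (s : Finset Cell × Finset Cell) (c : Cell) : Cell :=
  if mate6 c ≠ c ∧ mate6 c ∉ s.1 ∧ mate6 c ∉ s.2 then mate6 c else fresh (insert c (s.1 ∪ s.2))

/-- One round. -/
def step6 (s : Finset Cell × Finset Cell) (c : Cell) : Finset Cell × Finset Cell :=
  (insert c s.1, insert (reply6 s c) s.2)

/-- The pairing strategy as a function of the chronological list of the moves of Maker. -/
def strat6 (l : List Cell) : Cell :=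
  match l.reverse with
  | [] => (0, 2)
  | c :: r => reply6 (r.reverse.foldl step6 (∅, ∅)) c

/-- The position after `k` rounds. -/
def pos6 (m : ℕ → Cell) (k : ℕ) : Finset Cell × Finset Cell :=
  ((List.range k).map m).foldl step6 (∅, ∅)

theorem pos6_succ (m : ℕ → Cell) (k : ℕ) : pos6 m (k + 1) = step6 (pos6 m k) (m k) := by
  simp [pos6, List.range_succ, List.foldl_append]

theorem breakerMove6_eq (m : ℕ → Cell) (k : ℕ) :
    breakerMove strat6 m k = reply6 (pos6 m k) (m k) := by
  simp [breakerMove, strat6, pos6, List.range_succ]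

theorem pos6_fst (m : ℕ → Cell) (k : ℕ) : (pos6 m k).1 = (Finset.range k).image m := by
  induction k with
  | zero => simp [pos6]
  | succ k ih =>
    rw [pos6_succ, step6, Finset.range_add_one, Finset.image_insert, ih]

theorem pos6_snd (m : ℕ → Cell) (k : ℕ) :
    (pos6 m k).2 = (Finset.range k).image (breakerMove strat6 m) := by
  induction k with
  | zero => simp [pos6]
  | succ k ih =>
    rw [pos6_succ, step6, Finset.range_add_one, Finset.image_insert, ih, breakerMove6_eq]

theorem reply6_notMem (s : Finset Cell × Finset Cell) (c : Cell) :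
    reply6 s c ≠ c ∧ reply6 s c ∉ s.1 ∧ reply6 s c ∉ s.2 := by
  unfold reply6
  split_ifs with h
  · exact h
  · have hf := fresh_notMem (insert c (s.1 ∪ s.2))
    simp only [Finset.mem_insert, Finset.mem_union, not_or] at hf
    exact ⟨hf.1, hf.2.1, hf.2.2⟩

theorem reply6_mem_board (s : Finset Cell × Finset Cell) {c : Cell} (hc : c ∈ board) :
    reply6 s c ∈ board := by
  unfold reply6
  split_ifs with h
  · exact mate6_mem_board hc
  · exact fresh_mem_board _

/-- The invariant of the pairing strategy. -/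
def Inv6 (s : Finset Cell × Finset Cell) : Prop :=
  (∀ c ∈ s.1, c ∉ s.2) ∧ ∀ c ∈ s.1, mate6 c ≠ c → mate6 c ∈ s.2

theorem inv6_step {s : Finset Cell × Finset Cell} (hs : Inv6 s) {c : Cell}
    (hc1 : c ∉ s.1) (hc2 : c ∉ s.2) : Inv6 (step6 s c) := by
  obtain ⟨hr0, hr1, hr2⟩ := reply6_notMem s c
  refine ⟨?_, ?_⟩
  · intro d hd hd2
    simp only [step6, Finset.mem_insert] at hd hd2
    rcases hd with rfl | hd
    · rcases hd2 with h | h
      · exact hr0 h.symm
      · exact hc2 h
    · rcases hd2 with h | h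
      · exact hr1 (h ▸ hd)
      · exact hs.1 d hd h
  · intro d hd hne
    simp only [step6, Finset.mem_insert] at hd ⊢
    rcases hd with rfl | hd
    · by_cases hcond : mate6 d ≠ d ∧ mate6 d ∉ s.1 ∧ mate6 d ∉ s.2
      · left
        simp [reply6, hcond]
      · right
        by_contra hnot
        have hin1 : mate6 d ∈ s.1 := by
          by_contra h1
          exact hcond ⟨hne, h1, hnot⟩
        have h2 := hs.2 (mate6 d) hin1 (by rw [mate6_mate6]; exact fun h => hne h.symm)
        rw [mate6_mate6] at h2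
        exact hc2 h2
    · right
      exact hs.2 d hd hne

theorem inv6_pos {m : ℕ → Cell} {B : Set Cell} {K : ℕ} (hleg : MakerLegal B strat6 m K) :
    ∀ k ≤ K, Inv6 (pos6 m k) := by
  intro k
  induction k with
  | zero => intro _; simp [pos6, Inv6]
  | succ k ih =>
    intro hk
    rw [pos6_succ]
    obtain ⟨-, h1, h2⟩ := hleg k (by omega)
    apply inv6_step (ih (by omega))
    · rw [pos6_fst]
      simp only [Finset.mem_image, Finset.mem_range, not_exists, not_and]
      intro i hi heq
      exact h1 i hi heq.symm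
    · rw [pos6_snd]
      simp only [Finset.mem_image, Finset.mem_range, not_exists, not_and]
      intro i hi heq
      exact h2 i hi heq.symm

/-- Breaker wins on the plane without every sixth row. -/
theorem breakerWins_rows : BreakerWins {p : Cell | p.2 % 6 ≠ 5} := by
  refine ⟨strat6, fun m K hleg => ⟨?_, ?_⟩⟩
  · obtain ⟨hB, -, -⟩ := hleg K (by omega)
    obtain ⟨hr0, hr1, hr2⟩ := reply6_notMem (pos6 m K) (m K)
    rw [breakerMove6_eq]
    refine ⟨reply6_mem_board _ hB, ?_, ?_⟩
    · intro i hi heq
      rcases Nat.lt_or_ge i K with hlt | hge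
      · apply hr1
        rw [pos6_fst, heq]
        exact Finset.mem_image_of_mem _ (Finset.mem_range.mpr hlt)
      · have : i = K := by omega
        subst this
        exact hr0 heq
    · intro i hi heq
      apply hr2
      rw [pos6_snd, heq]
      exact Finset.mem_image_of_mem _ (Finset.mem_range.mpr hi)
  · rintro ⟨C, hC, hCm⟩
    have hinv := inv6_pos hleg (K + 1) le_rfl
    have hCpos : ∀ c ∈ C, c ∈ (pos6 m (K + 1)).1 := by
      intro c hc
      obtain ⟨i, hi, rfl⟩ := hCm c hc
      rw [pos6_fst]
      exact Finset.mem_image_of_mem _ (Finset.mem_range.mpr (by omega))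
    have hCs : ∀ c ∈ C, c ∈ board := by
      intro c hc
      obtain ⟨i, hi, rfl⟩ := hCm c hc
      exact (hleg i (by omega)).1
    obtain ⟨c, hc, hmc, hne⟩ := copy_has_pair6 hC hCs
    exact hinv.1 (mate6 c) (hCpos _ hmc) (hinv.2 c (hCpos _ hc) hne)

end Vale.Agent.Helper8.P062Rows
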